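import Vale.Agent.P076.Main

open MeasureTheory Filter
open scoped Topology

namespace Vale.Agent.Results.P076.LambdaP

open Vale.Agent.P076

theorem result (p s : ℝ) (hp : 2 ≤ p) (hs : 1 / 4 + 1 / (2 * p) < s) (Λ : Set ℤ) (hΛ : Lam p Λ)
    (f : Lp ℂ 2 (volume : Measure ℂ))
    (hf : Integrable fun ξ => (1 + ‖ξ‖ ^ 2) ^ s * ‖hat f ξ‖ ^ 2) (hsp : Spec Λ (hat f)) :
    ∀ᵐ x : ℂ, ∃ u : ℝ → ℂ, (∀ t, Tendsto (fun a => reg f a t x) (𝓝[>] 0) (𝓝 (u t))) ∧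
      Tendsto u (𝓝[>] 0) (𝓝 (f x)) :=
  main hp hs hΛ f hf hsp

end Vale.Agent.Results.P076.LambdaP
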